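import Mathlib

/-!
# P088, stage 4, row P4N: numbers
-/

noncomputable section

namespace Vale.Agent.P088.S4.H238

theorem num_z {n : ℕ} {c R : ℝ} (hn : (0 : ℝ) < n) (hc : 0 < c) (hR : 1 ≤ R) (p : ℕ) :
    1 + p.factorial / (2 * (c / n) * (1 / R ^ 2 / 2) ^ 2) ^ p ≤
      (1 + p.factorial * (2 * n / c) ^ p) * R ^ (4 * p) := by
  have hR0 : 0 < R := by linarith
  have e : (2 * (c / n) * (1 / R ^ 2 / 2) ^ 2) = (2 * n / c * R ^ 4)⁻¹ := by
    field_simp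
  rw [e, inv_pow, div_inv_eq_mul, mul_pow, ← pow_mul, add_mul, one_mul]
  have h1 : 1 ≤ R ^ (4 * p) := one_le_pow₀ hR
  linarith

theorem er_num (n N : ℕ) (hn : 1 ≤ n) {a c C C₁ C3 v I : ℝ} (p : ℕ) (hc : 0 < c) (hC1 : 0 ≤ C₁)
    (hC3 : 0 ≤ C3) (hv : 0 ≤ v) (hI : 0 ≤ I) {s : ℝ} (hs : 0 ≤ s) :
    ∃ C' : ℝ, 0 ≤ C' ∧ ∀ C'' : ℝ, C' ≤ C'' → ∀ R kap δ A : ℝ, 1 ≤ R → 1 ≤ kap → 0 ≤ δ →
      (n + 4 + a) * Real.log kap ≤ R → A = C3 * R ^ C3 * kap ^ s * δ →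
      2 * (Real.exp (2 * C₁) / (c * R ^ (-C₁)) *
        Real.exp (-((a + (n + 4 : ℕ)) * Real.log kap))) *
        ((2 * N * (3 * C) * A) ^ 2 * I / √(c / n) ^ (n + 4) * v +
          (2 * N * 4 * A) ^ 2 *
            (1 + p.factorial / (2 * (c / n) * (1 / R ^ 2 / 2) ^ 2) ^ p) * v ^ 2) +
      2 * (2 * N * 4 * A) ^ 2 * Real.exp (-R) * v ^ 2 ≤
      C'' * R ^ C'' * kap ^ (4 * s) * δ ^ 2 * kap ^ (-(n + 4 + a) : ℝ) := by
  have hn0 : (0 : ℝ) < n := by exact_mod_cast hn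
  set Y1 : ℝ := (2 * N * (3 * C)) ^ 2 * I / √(c / n) ^ (n + 4) * v with hY1
  set Y2 : ℝ := (2 * N * 4) ^ 2 * v ^ 2 with hY2
  set Z0 : ℝ := 1 + p.factorial * (2 * n / c) ^ p with hZ0
  set X0 : ℝ := Real.exp (2 * C₁) / c with hX0
  have hY1' : 0 ≤ Y1 := by positivity
  have hY2' : 0 ≤ Y2 := by positivity
  have hZ0' : 0 ≤ Z0 := by positivity
  have hX0' : 0 ≤ X0 := by positivity
  set K : ℝ := (2 * X0 * (Y1 + Y2 * Z0) + 2 * Y2) * C3 ^ 2 with hK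
  have hK0 : 0 ≤ K := by positivity
  set e1 : ℝ := C₁ + 4 * p + 2 * C3 with he1
  have he0 : 0 ≤ e1 := by positivity
  refine ⟨max K e1, hK0.trans (le_max_left _ _), ?_⟩
  intro C'' hC'' R kap δ A hR hk hδ hl hA
  have hR0 : 0 < R := by linarith
  have hk0 : 0 < kap := by linarith
  set E : ℝ := kap ^ (-(n + 4 + a) : ℝ) with hE
  have hE0 : 0 < E := Real.rpow_pos_of_pos hk0 _
  have h1 : Real.exp (-((a + (n + 4 : ℕ)) * Real.log kap)) = E := by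
    rw [hE, Real.rpow_def_of_pos hk0]
    congr 1
    push_cast
    ring
  have h2 : Real.exp (-R) ≤ E := by
    rw [hE, Real.rpow_def_of_pos hk0]
    refine Real.exp_le_exp.2 ?_
    linarith
  have h3 : Real.exp (2 * C₁) / (c * R ^ (-C₁)) = X0 * R ^ C₁ := by
    rw [Real.rpow_neg hR0.le, hX0]
    field_simp
  have h4 := num_z hn0 hc hR p
  rw [← hZ0] at h4
  have h5 : (R : ℝ) ^ (4 * p) = R ^ (4 * p : ℝ) := by
    rw [← Real.rpow_natCast]; congr 1; push_cast; ring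
  have hA2 : A ^ 2 = C3 ^ 2 * R ^ (2 * C3) * kap ^ (2 * s) * δ ^ 2 := by
    have g1 : (R ^ C3) ^ 2 = R ^ (2 * C3) := by
      rw [← Real.rpow_natCast (R ^ C3), ← Real.rpow_mul hR0.le]
      congr 1; push_cast; ring
    have g2 : (kap ^ s) ^ 2 = kap ^ (2 * s) := by
      rw [← Real.rpow_natCast (kap ^ s), ← Real.rpow_mul hk0.le]
      congr 1; push_cast; ring
    rw [hA, mul_pow, mul_pow, mul_pow, g1, g2]
  have hA0 : 0 ≤ A ^ 2 := sq_nonneg _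
  have hRC : 0 ≤ R ^ C₁ := by positivity
  have hRC1 : 1 ≤ R ^ C₁ := Real.one_le_rpow hR hC1
  have hRp1 : 1 ≤ R ^ (4 * p) := one_le_pow₀ hR
  rw [h1, h3]
  calc 2 * (X0 * R ^ C₁ * E) * ((2 * N * (3 * C) * A) ^ 2 * I / √(c / n) ^ (n + 4) * v +
          (2 * N * 4 * A) ^ 2 *
            (1 + p.factorial / (2 * (c / n) * (1 / R ^ 2 / 2) ^ 2) ^ p) * v ^ 2) +
      2 * (2 * N * 4 * A) ^ 2 * Real.exp (-R) * v ^ 2
      = 2 * (X0 * R ^ C₁ * E) * (Y1 * A ^ 2 + Y2 * A ^ 2 *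
          (1 + p.factorial / (2 * (c / n) * (1 / R ^ 2 / 2) ^ 2) ^ p)) +
        2 * Y2 * A ^ 2 * Real.exp (-R) := by rw [hY1, hY2]; ring
    _ ≤ 2 * (X0 * R ^ C₁ * E) * (Y1 * A ^ 2 * R ^ (4 * p) + Y2 * A ^ 2 * (Z0 * R ^ (4 * p))) +
        2 * Y2 * A ^ 2 * (E * (R ^ C₁ * R ^ (4 * p))) := by
        have g1 : Y1 * A ^ 2 ≤ Y1 * A ^ 2 * R ^ (4 * p) :=
          le_mul_of_one_le_right (by positivity) hRp1
        have g2 : Y2 * A ^ 2 * (1 + p.factorial / (2 * (c / n) * (1 / R ^ 2 / 2) ^ 2) ^ p) ≤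
            Y2 * A ^ 2 * (Z0 * R ^ (4 * p)) := mul_le_mul_of_nonneg_left h4 (by positivity)
        have g3 : Real.exp (-R) ≤ E * (R ^ C₁ * R ^ (4 * p)) := by
          refine h2.trans (le_mul_of_one_le_right hE0.le ?_)
          exact one_le_mul_of_one_le_of_one_le hRC1 hRp1
        exact add_le_add (mul_le_mul_of_nonneg_left (add_le_add g1 g2) (by positivity))
          (mul_le_mul_of_nonneg_left g3 (by positivity))
    _ = (2 * X0 * (Y1 + Y2 * Z0) + 2 * Y2) * (R ^ C₁ * R ^ (4 * p)) * A ^ 2 * E := by ring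
    _ = K * (R ^ C₁ * R ^ (4 * p : ℝ) * R ^ (2 * C3)) * kap ^ (2 * s) * δ ^ 2 * E := by
        rw [hA2, h5, hK]; ring
    _ = K * R ^ e1 * kap ^ (2 * s) * δ ^ 2 * E := by
        rw [← Real.rpow_add hR0, ← Real.rpow_add hR0, he1]
    _ ≤ C'' * R ^ C'' * kap ^ (4 * s) * δ ^ 2 * E := by
        have g1 : K ≤ C'' := (le_max_left _ _).trans hC''
        have g2 : R ^ e1 ≤ R ^ C'' :=
          Real.rpow_le_rpow_of_exponent_le hR ((le_max_right _ _).trans hC'')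
        have g3 : kap ^ (2 * s) ≤ kap ^ (4 * s) :=
          Real.rpow_le_rpow_of_exponent_le hk (by linarith)
        have g4 : 0 ≤ C'' := hK0.trans g1
        have g5 : K * R ^ e1 * kap ^ (2 * s) ≤ C'' * R ^ C'' * kap ^ (4 * s) :=
          mul_le_mul (mul_le_mul g1 g2 (by positivity) g4) g3 (by positivity) (by positivity)
        exact mul_le_mul_of_nonneg_right (mul_le_mul_of_nonneg_right g5 (sq_nonneg _)) hE0.le

/-- Large numbers: the conditions on `R`. -/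
theorem big_R (c C₁ : ℝ) (hc : 0 < c) : ∃ R₀ : ℝ, ∀ R : ℝ, R₀ ≤ R → 1 ≤ R →
    C₁ ≤ R / 2 ∧ Real.exp (-R) ≤ c * R ^ (-C₁) := by
  have h1 : Filter.Tendsto (fun R : ℝ => R ^ C₁ * Real.exp (-R)) Filter.atTop (nhds 0) := by
    have := tendsto_rpow_mul_exp_neg_mul_atTop_nhds_zero C₁ 1 one_pos
    simpa using this
  have h2 : ∀ᶠ R : ℝ in Filter.atTop, R ^ C₁ * Real.exp (-R) < c :=
    h1.eventually (gt_mem_nhds hc)
  obtain ⟨R₀, h3⟩ := Filter.eventually_atTop.1 h2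
  refine ⟨max R₀ (2 * C₁), fun R hR hR1 => ⟨?_, ?_⟩⟩
  · have := (le_max_right _ _).trans hR
    linarith
  · have hR0 : 0 < R := by linarith
    have h4 := h3 R ((le_max_left _ _).trans hR)
    rw [Real.rpow_neg hR0.le, ← div_eq_mul_inv, le_div_iff₀ (by positivity)]
    linarith

end Vale.Agent.P088.S4.H238
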