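import Vale.Agent.P088.R2.H673.S3.SC

/-!
# P088, step S6 with a lateral region: the weighted integral of the residuals
-/

open MeasureTheory Set Filter
open scoped ContDiff Matrix Topology

noncomputable section

namespace Vale.Agent.P088.S4.H238

open Vale.Agent.P088.LR Vale.Agent.P088.HY Vale.Agent.P088.HY.QM Vale.Agent.P088.HY.S3

variable {n : ℕ}

theorem pw4' {Wz wz A X S : ℝ} (hw0 : 0 < wz) (h : Real.exp (2 * (X - Wz)) ≤ Real.exp (-S) * wz) :
    Real.exp (-(2 * Wz)) * (A * Real.exp X) ^ 2 / wz ≤ A ^ 2 * Real.exp (-S) := by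
  rw [div_le_iff₀ hw0, mul_pow, ← Real.exp_nat_mul]
  have e1 : Real.exp (-(2 * Wz)) * Real.exp ((2 : ℕ) * X) = Real.exp (2 * (X - Wz)) := by
    rw [← Real.exp_add]
    congr 1
    push_cast
    ring
  calc Real.exp (-(2 * Wz)) * (A ^ 2 * Real.exp ((2 : ℕ) * X))
      = A ^ 2 * (Real.exp (-(2 * Wz)) * Real.exp ((2 : ℕ) * X)) := by ring
    _ = A ^ 2 * Real.exp (2 * (X - Wz)) := by rw [e1]
    _ ≤ A ^ 2 * (Real.exp (-S) * wz) := mul_le_mul_of_nonneg_left h (sq_nonneg _)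
    _ = _ := by ring

/-- The core of step S6, with a lateral region. -/
theorem s6core' {O : Set (V n)} (hO : IsOpen O) {v : ℝ} (hv0 : 0 ≤ v)
    (hv : volume O ≤ ENNReal.ofReal v) {u : V n → ℝ} (hu : ContinuousOn u O)
    {l a b D q N c1 C1 cw S r A1 A2 : ℝ} (p : ℕ) (hl : 0 ≤ l) (ha : 0 ≤ a) (hb : 0 ≤ b)
    (hD : 2 * b + a + (n + 4 : ℕ) ≤ D) (hq : b + 2 * D + (n + 4 : ℕ) ≤ 2 * q)
    (hp : 2 * D + 2 * b + 2 * (n + 4 : ℕ) ≤ p) (hc1 : 0 < c1) (hcw : 0 < cw) (hr : 0 < r)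
    {W w F : VV n → ℝ} {Nr : Set (VV n)}
    (hF0 : ∀ z, F z ≠ 0 → z ∈ O ×ˢ O ∧ z ∈ Nr)
    (hF : ∀ z ∈ O ×ˢ O, z ∈ Nr → ∃ T1 T2 : ℝ, |F z| ≤ T1 + T2 ∧
      (T1 = 0 ∨ (-(3 / 4 * l) ≤ u z.1 ∧
        T1 = A1 * Real.exp (N * u z.1 - q * |u z.1|) * ‖z.1 - z.2‖ ^ 2)) ∧
      (T2 = 0 ∨ (r ^ 2 ≤ HY.sq (z.1 - z.2) ∧ T2 = A2 * Real.exp (N * u z.1)) ∨
        ∃ X : ℝ, T2 = A2 * Real.exp X ∧ Real.exp (2 * (X - W z)) ≤ Real.exp (-S) * w z))
    (hW : ∀ z ∈ O ×ˢ O, z ∈ Nr →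
      (N - D) * u z.1 + c1 * Real.exp (2 * (l + u z.1)) * HY.sq (z.1 - z.2) - C1 ≤ W z)
    (hw1 : ∀ z ∈ O ×ˢ O, z ∈ Nr → -(3 / 4 * l) ≤ u z.1 →
      cw * Real.exp (a * l - b * |u z.1|) ≤ w z)
    (hw2 : ∀ z ∈ O ×ˢ O, z ∈ Nr → cw * Real.exp (-(b * l) - b * |u z.1|) ≤ w z) :
    ∫ z, Wt W w F z ≤
      2 * (Real.exp (2 * C1) / cw * Real.exp (-((a + (n + 4 : ℕ)) * l))) *
        (A1 ^ 2 * (∫ x : V n, gs 1 x) / √c1 ^ (n + 4) * v +
          A2 ^ 2 * (1 + p.factorial / (2 * c1 * r ^ 2) ^ p) * v ^ 2) +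
      2 * A2 ^ 2 * Real.exp (-S) * v ^ 2 := by
  have hm : (0 : ℝ) ≤ (n + 4 : ℕ) := Nat.cast_nonneg _
  have hD0 : 0 ≤ D := by linarith
  set X := Real.exp (-((a + (n + 4 : ℕ)) * l)) with hX
  have hX0 : 0 < X := Real.exp_pos _
  set Y := Real.exp (2 * C1) / cw with hY
  have hY0 : 0 < Y := div_pos (Real.exp_pos _) hcw
  set Q : ℝ := p.factorial / (2 * c1 * r ^ 2) ^ p with hQ
  have hQ0 : 0 ≤ Q := by positivity
  set Cst := A2 ^ 2 * Y * (1 + Q) * X + A2 ^ 2 * Real.exp (-S) with hC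
  have hC0 : 0 ≤ Cst := by positivity
  have hnn : ∀ z, z ∈ O ×ˢ O → z ∈ Nr → 0 < w z := fun z h1 h2 =>
    lt_of_lt_of_le (mul_pos hcw (Real.exp_pos _)) (hw2 z h1 h2)
  have h0 : ∀ z, 0 ≤ Wt W w F z := by
    intro z
    unfold Wt
    by_cases hz : F z = 0
    · simp [hz]
    · obtain ⟨h1, h2⟩ := hF0 z hz
      exact div_nonneg (by positivity) (hnn z h1 h2).le
  have hPP0 : ∀ x ∈ O, 0 ≤ PP a b D q A1 Y l u x := fun x _ => by unfold PP; positivity
  have hpt : ∀ z, Wt W w F z ≤ 2 * fG O (PP a b D q A1 Y l u) (TT c1 l u) z +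
      2 * (O ×ˢ O).indicator (fun _ => Cst) z := by
    intro z
    have hI0 : 0 ≤ (O ×ˢ O).indicator (fun _ => Cst) z := indicator_nonneg (fun _ _ => hC0) z
    have hG0 : 0 ≤ fG O (PP a b D q A1 Y l u) (TT c1 l u) z := fG_nonneg hPP0 z
    by_cases hz : F z = 0
    · have : Wt W w F z = 0 := by simp [Wt, hz]
      rw [this]
      positivity
    obtain ⟨h1, h2⟩ := hF0 z hz
    obtain ⟨T1, T2, g1, g2, g3⟩ := hF z h1 h2
    have hw := hnn z h1 h2
    refine (sq_split (Real.exp_pos _).le hw g1).trans (add_le_add ?_ ?_)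
    · refine mul_le_mul_of_nonneg_left ?_ (by norm_num)
      rcases g2 with g2 | ⟨g2, g2'⟩
      · rw [g2]; simpa using hG0
      · rw [g2', fG_of_mem h1.1]
        have h3 := pw1 (q := q) (A := A1) (N := N) hcw (sq_nonneg ‖z.1 - z.2‖)
          (norm_sq_le (z.1 - z.2)) (hW z h1 h2) (hw1 z h1 h2 g2)
        refine h3.trans (le_of_eq ?_)
        simp only [PP, TT, gs, hY]
        ring
    · refine mul_le_mul_of_nonneg_left ?_ (by norm_num)
      rw [indicator_of_mem h1]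
      rcases g3 with g3 | ⟨hr2, g3'⟩ | ⟨X', g3', g3''⟩
      · rw [g3]; simpa using hC0
      · rw [g3']
        have hs0 : 0 ≤ HY.sq (z.1 - z.2) := sq_nonneg' _
        have hES : 0 ≤ A2 ^ 2 * Real.exp (-S) := by positivity
        by_cases hu' : -(3 / 4 * l) ≤ u z.1
        · refine (pw2 (A := A2) p hcw hc1 hr hr2 hl hb hD0 hm hp hu' (hW z h1 h2)
            (hw1 z h1 h2 hu')).trans ?_
          rw [mul_div_assoc, ← hY, ← hX, ← hQ, hC]
          have : 0 ≤ A2 ^ 2 * Y * X := by positivity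
          nlinarith
        · refine (pw3 (A := A2) hcw hc1 hs0 hl ha hb hm hD (not_le.mp hu') (hW z h1 h2)
            (hw2 z h1 h2)).trans ?_
          rw [mul_div_assoc, ← hY, ← hX, hC]
          have : 0 ≤ A2 ^ 2 * Y * Q * X := by positivity
          nlinarith
      · rw [g3']
        refine (pw4' (A := A2) hw g3'').trans ?_
        rw [hC]
        have : 0 ≤ A2 ^ 2 * Y * (1 + Q) * X := by positivity
        linarith
  have hcu : ContinuousOn (PP a b D q A1 Y l u) O := by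
    unfold PP
    exact continuousOn_const.mul ((((continuousOn_const.mul hu).sub
      (continuousOn_const.mul hu.abs)).sub continuousOn_const).rexp)
  have hcT : ContinuousOn (TT c1 l u) O := by
    unfold TT
    exact continuousOn_const.mul ((continuousOn_const.mul (continuousOn_const.add hu)).rexp)
  have hT0 : ∀ x ∈ O, 0 < TT c1 l u x := fun x _ => mul_pos hc1 (Real.exp_pos _)
  obtain ⟨i1, i2⟩ := gint hO hv0 hv hcu hcT hPP0 hT0
    (c := A1 ^ 2 * Y * X / √c1 ^ (n + 4)) (by positivity)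
    (fun x _ => PP_le hD0 hY0.le hc1 hq x)
  have hvO : volume (O ×ˢ O) ≤ ENNReal.ofReal (v ^ 2) := by
    rw [Measure.volume_eq_prod, Measure.prod_prod, pow_two, ENNReal.ofReal_mul hv0]
    exact mul_le_mul' hv hv
  have i3 : Integrable ((O ×ˢ O).indicator (fun _ : VV n => Cst)) := by
    rw [integrable_indicator_iff (hO.measurableSet.prod hO.measurableSet)]
    exact integrableOn_const (lt_of_le_of_lt hvO ENNReal.ofReal_lt_top).ne
  have i4 : ∫ z, (O ×ˢ O).indicator (fun _ : VV n => Cst) z ≤ v ^ 2 * Cst := by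
    rw [integral_indicator (hO.measurableSet.prod hO.measurableSet), setIntegral_const, smul_eq_mul,
      Measure.real]
    exact mul_le_mul_of_nonneg_right
      (ENNReal.toReal_le_of_le_ofReal (sq_nonneg _) hvO) hC0
  have i5 : Integrable (fun z => 2 * fG O (PP a b D q A1 Y l u) (TT c1 l u) z +
      2 * (O ×ˢ O).indicator (fun _ => Cst) z) := (i1.const_mul 2).add (i3.const_mul 2)
  refine (integral_mono_of_nonneg (ae_of_all _ h0) i5 (ae_of_all _ hpt)).trans ?_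
  rw [integral_add (i1.const_mul 2) (i3.const_mul 2), integral_const_mul, integral_const_mul]
  have j0 : (0 : ℝ) ≤ 2 := by norm_num
  have j1 := add_le_add (mul_le_mul_of_nonneg_left i2 j0) (mul_le_mul_of_nonneg_left i4 j0)
  refine j1.trans (le_of_eq ?_)
  rw [hC]
  ring

end Vale.Agent.P088.S4.H238
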